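import Vale.Agent.P170.Defs
import Vale.Agent.P170.Transfer

open Filter Topology

namespace Vale.Agent.Results.P170.Threshold

/-- The satisfiability threshold conjecture: for every `k ≥ 3`, random `k`-SAT (independent
uniform proper clauses, sampled with replacement) has a limiting threshold in `(0, ∞)`. -/
theorem result : ∀ k : ℕ, 3 ≤ k → ∃ α : ℝ, 0 < α ∧
    (∀ c : ℝ, 0 ≤ c → c < α →
      Tendsto (fun n : ℕ => Vale.Agent.P170.satProb k n ⌊c * (n : ℝ)⌋₊) atTop (𝓝 1)) ∧
    (∀ c : ℝ, α < c →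
      Tendsto (fun n : ℕ => Vale.Agent.P170.satProb k n ⌊c * (n : ℝ)⌋₊) atTop (𝓝 0)) :=
  fun _ hk => Vale.Agent.P170.threshold_proper hk

end Vale.Agent.Results.P170.Threshold
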